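import Mathlib
import Crest.Prelude.Def_Shuffle

/-!
helper13: elementary facts about the shuffle of `Def_Shuffle` and the counting lower bound
for its total variation distance from uniform (used by S0223).

* every single shuffle `stepPos m c` is injective, hence so is `iterPos m t cs`;
* therefore every bit table `cs` produces exactly one permutation `permOf m t cs`;
* at most `2 ^ (m * t)` permutations have positive probability, which gives
  `1 - 2 ^ (m * t) / (2 * m)! ≤ tvFromUniform m t`.
-/

set_option autoImplicit false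

namespace Crest.Agent.Helper13.Shuffle

open Crest.ProbabilityR.Shuffle

theorem stepPos_val (m : ℕ) (c : Fin m → Bool) (x : Fin (2 * m)) :
    (stepPos m c x).val = 2 * (x.val % m) +
      (if xor (decide (m ≤ x.val))
          (c ⟨x.val % m, Nat.mod_lt _ (by have hx := x.isLt; omega)⟩) then 1 else 0) := rfl

theorem stepPos_injective (m : ℕ) (c : Fin m → Bool) : Function.Injective (stepPos m c) := by
  intro x y h
  have hx := x.isLt
  have hy := y.isLt
  have hm : 0 < m := by omega
  have hv := congrArg Fin.val h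
  rw [stepPos_val, stepPos_val] at hv
  have hmod : x.val % m = y.val % m := by
    split_ifs at hv <;> omega
  have hc : c ⟨x.val % m, Nat.mod_lt _ hm⟩ = c ⟨y.val % m, Nat.mod_lt _ hm⟩ :=
    congrArg c (Fin.ext hmod)
  rw [hc, hmod] at hv
  have hside : (m ≤ x.val) ↔ (m ≤ y.val) := by
    by_cases hxm : m ≤ x.val <;> by_cases hym : m ≤ y.val <;>
      cases hcy : c ⟨y.val % m, Nat.mod_lt _ hm⟩ <;> simp [hxm, hym, hcy] at hv ⊢
  apply Fin.ext
  by_cases hxm : m ≤ x.val
  · have hym : m ≤ y.val := hside.mp hxm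
    have e1 : x.val % m = x.val - m := by
      rw [Nat.mod_eq_sub_mod hxm, Nat.mod_eq_of_lt (by omega)]
    have e2 : y.val % m = y.val - m := by
      rw [Nat.mod_eq_sub_mod hym, Nat.mod_eq_of_lt (by omega)]
    omega
  · have hym : ¬ m ≤ y.val := fun h' => hxm (hside.mpr h')
    have e1 : x.val % m = x.val := Nat.mod_eq_of_lt (by omega)
    have e2 : y.val % m = y.val := Nat.mod_eq_of_lt (by omega)
    omega

theorem iterPos_zero (m : ℕ) (cs : Fin 0 → Fin m → Bool) (x : Fin (2 * m)) :
    iterPos m 0 cs x = x := rfl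

theorem iterPos_succ (m t : ℕ) (cs : Fin (t + 1) → Fin m → Bool) (x : Fin (2 * m)) :
    iterPos m (t + 1) cs x =
      stepPos m (cs (Fin.last t)) (iterPos m t (fun i => cs i.castSucc) x) := rfl

theorem iterPos_injective (m : ℕ) :
    ∀ (t : ℕ) (cs : Fin t → Fin m → Bool), Function.Injective (iterPos m t cs)
  | 0, cs => fun x y h => by simpa [iterPos_zero] using h
  | t + 1, cs => fun x y h => by
      rw [iterPos_succ, iterPos_succ] at h
      exact iterPos_injective m t _ (stepPos_injective m _ h)

/-- The permutation of the positions produced by the bit table `cs`. -/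
noncomputable def permOf (m t : ℕ) (cs : Fin t → Fin m → Bool) : Equiv.Perm (Fin (2 * m)) :=
  Equiv.ofBijective (iterPos m t cs)
    (Finite.injective_iff_bijective.mp (iterPos_injective m t cs))

theorem coe_permOf (m t : ℕ) (cs : Fin t → Fin m → Bool) :
    ⇑(permOf m t cs) = iterPos m t cs := rfl

theorem iterPos_eq_iff (m t : ℕ) (cs : Fin t → Fin m → Bool) (g : Equiv.Perm (Fin (2 * m))) :
    iterPos m t cs = ⇑g ↔ permOf m t cs = g := by
  constructor
  · intro h
    apply Equiv.ext
    intro x
    rw [coe_permOf, h]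
  · intro h
    rw [← h, coe_permOf]

theorem uniformProb_def {Ω : Type*} [Fintype Ω] (E : Set Ω) :
    Crest.FinProb.uniformProb E =
      ((@Finset.filter Ω (· ∈ E) (Classical.decPred (· ∈ E)) Finset.univ).card : ℝ) /
        (Fintype.card Ω : ℝ) := rfl

theorem tvFromUniform_def (m t : ℕ) :
    tvFromUniform m t = (1 / 2) * ∑ g : Equiv.Perm (Fin (2 * m)),
      |Crest.FinProb.uniformProb {cs : Fin t → Fin m → Bool | iterPos m t cs = ⇑g}
        - 1 / ((2 * m).factorial : ℝ)| := rfl

open Classical in
/-- Number of bit tables producing the permutation `g`. -/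
noncomputable def fiberCard (m t : ℕ) (g : Equiv.Perm (Fin (2 * m))) : ℕ :=
  (Finset.univ.filter (fun cs : Fin t → Fin m → Bool => permOf m t cs = g)).card

open Classical in
theorem uniformProb_event (m t : ℕ) (g : Equiv.Perm (Fin (2 * m))) :
    Crest.FinProb.uniformProb {cs : Fin t → Fin m → Bool | iterPos m t cs = ⇑g} =
      (fiberCard m t g : ℝ) / ((2 : ℝ) ^ (m * t)) := by
  rw [uniformProb_def]
  have h1 : (@Finset.filter (Fin t → Fin m → Bool)
      (· ∈ {cs : Fin t → Fin m → Bool | iterPos m t cs = ⇑g})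
      (Classical.decPred _) Finset.univ) =
      Finset.univ.filter (fun cs : Fin t → Fin m → Bool => permOf m t cs = g) := by
    ext cs
    simp only [Finset.mem_filter, Finset.mem_univ, true_and, Set.mem_ofPred_eq]
    exact iterPos_eq_iff m t cs g
  have h2 : (Fintype.card (Fin t → Fin m → Bool) : ℝ) = (2 : ℝ) ^ (m * t) := by
    simp [Fintype.card_pi, pow_mul]
  rw [h1, h2]
  rfl

open Classical in
theorem sum_fiberCard (m t : ℕ) :
    ∑ g : Equiv.Perm (Fin (2 * m)), fiberCard m t g = 2 ^ (m * t) := by
  have h := Finset.card_eq_sum_card_fiberwise (f := permOf m t)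
    (s := (Finset.univ : Finset (Fin t → Fin m → Bool)))
    (t := (Finset.univ : Finset (Equiv.Perm (Fin (2 * m)))))
    (fun x _ => Finset.mem_univ _)
  have h2 : (Finset.univ : Finset (Fin t → Fin m → Bool)).card = 2 ^ (m * t) := by
    simp [Fintype.card_pi, pow_mul]
  rw [h2] at h
  rw [h]
  rfl

/-- The counting lower bound: at most `2 ^ (m * t)` permutations are reachable. -/
theorem tv_lower (m t : ℕ) :
    1 - (2 : ℝ) ^ (m * t) / ((2 * m).factorial : ℝ) ≤ tvFromUniform m t := by
  rw [tvFromUniform_def]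
  have hN : (0 : ℝ) < ((2 * m).factorial : ℝ) := by exact_mod_cast Nat.factorial_pos _
  have hS : (0 : ℝ) < (2 : ℝ) ^ (m * t) := by positivity
  set N : ℝ := ((2 * m).factorial : ℝ) with hNdef
  set S : ℝ := (2 : ℝ) ^ (m * t) with hSdef
  have hpt : ∀ g : Equiv.Perm (Fin (2 * m)),
      (fiberCard m t g : ℝ) / S + 1 / N - 2 * (fiberCard m t g : ℝ) / N ≤
        |Crest.FinProb.uniformProb {cs : Fin t → Fin m → Bool | iterPos m t cs = ⇑g} - 1 / N| := by
    intro g
    rw [uniformProb_event]
    rcases Nat.eq_zero_or_pos (fiberCard m t g) with h0 | hpos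
    · rw [h0]
      simp only [Nat.cast_zero, zero_div, mul_zero, zero_add, sub_zero, zero_sub, abs_neg]
      exact le_abs_self _
    · have h1 : (1 : ℝ) ≤ (fiberCard m t g : ℝ) := by exact_mod_cast hpos
      have h2 : (fiberCard m t g : ℝ) / S + 1 / N - 2 * (fiberCard m t g : ℝ) / N ≤
          (fiberCard m t g : ℝ) / S - 1 / N := by
        have : 2 * (1 : ℝ) / N ≤ 2 * (fiberCard m t g : ℝ) / N := by
          apply div_le_div_of_nonneg_right _ hN.le
          linarith
        have e : 2 * (1 : ℝ) / N = 1 / N + 1 / N := by ring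
        linarith
      exact le_trans h2 (le_abs_self _)
  have hsum := Finset.sum_le_sum (fun g (_ : g ∈ (Finset.univ : Finset (Equiv.Perm (Fin (2 * m))))) => hpt g)
  have hcard : ((Finset.univ : Finset (Equiv.Perm (Fin (2 * m)))).card : ℝ) = N := by
    rw [Finset.card_univ, Fintype.card_perm, Fintype.card_fin]
  have hsumf : ∑ g : Equiv.Perm (Fin (2 * m)), (fiberCard m t g : ℝ) = S := by
    have := sum_fiberCard m t
    have h' : ((∑ g : Equiv.Perm (Fin (2 * m)), fiberCard m t g : ℕ) : ℝ) = ((2 ^ (m * t) : ℕ) : ℝ) := by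
      rw [this]
    rw [Nat.cast_sum] at h'
    rw [h']
    push_cast
    rfl
  have hL : ∑ g : Equiv.Perm (Fin (2 * m)),
      ((fiberCard m t g : ℝ) / S + 1 / N - 2 * (fiberCard m t g : ℝ) / N) = 2 - 2 * S / N := by
    rw [Finset.sum_sub_distrib, Finset.sum_add_distrib, ← Finset.sum_div, Finset.sum_const,
      ← Finset.sum_div, ← Finset.mul_sum, hsumf, nsmul_eq_mul, hcard]
    field_simp
    ring
  rw [hL] at hsum
  have : 1 - S / N = (1 / 2) * (2 - 2 * S / N) := by ring
  rw [this]
  exact mul_le_mul_of_nonneg_left hsum (by norm_num)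

end Crest.Agent.Helper13.Shuffle
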